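import Vale.Agent.P233.H71.Davies

set_option linter.all false

open MeasureTheory Filter Topology Set
open scoped ENNReal NNReal

namespace Vale.Agent.P233.H71

variable {M : Type*} [MeasurableSpace M] {m : Measure M} {C : Calc m}

/-! ### `L²` convergence -/

/-- multiplication by a bounded class -/
theorem I_mul_sq_le {f w : M →ₘ[m] ℝ} (hf : MemLp f 2 m) {K : ℝ} (hw : ∀ᵐ x ∂m, |w x| ≤ K) :
    I ((f * w) ^ 2) ≤ K ^ 2 * I (f ^ 2) := by
  have hwt : MemLp w ∞ m := mem_top_iff.2 ⟨K, hw⟩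
  rw [← I_smul]
  apply I_mono (mem_sq (mem_top_mul hf hwt)) (mem_smul _ (mem_sq hf))
  rw [le_iff_ae]
  filter_upwards [sq_ae (f * w), mul_ae f w, smul_ae (f ^ 2) (K ^ 2), sq_ae f, hw]
    with x a1 a2 a3 a4 a5
  rw [a1, a2, a3, a4]
  have h1 : w x ^ 2 ≤ K ^ 2 := sq_le_sq' (by linarith [abs_le.1 a5]) (by linarith [abs_le.1 a5])
  nlinarith [sq_nonneg (f x)]

/-- convergence of products -/
theorem I_mul_tendsto {ι : Type*} {F : Filter ι} {f g : ι → M →ₘ[m] ℝ} {f0 g0 : M →ₘ[m] ℝ}
    (hf : ∀ᶠ i in F, MemLp (f i) 2 m) (hg : ∀ᶠ i in F, MemLp (g i) 2 m)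
    (hf0 : MemLp f0 2 m) (hg0 : MemLp g0 2 m)
    (h1 : Tendsto (fun i => I ((f i - f0) ^ 2)) F (𝓝 0))
    (h2 : Tendsto (fun i => I ((g i - g0) ^ 2)) F (𝓝 0)) :
    Tendsto (fun i => I (f i * g i)) F (𝓝 (I (f0 * g0))) := by
  have s1 : Tendsto (fun i => Real.sqrt (I ((f i - f0) ^ 2))) F (𝓝 0) := by
    have := (Real.continuous_sqrt.tendsto 0).comp h1
    rw [Real.sqrt_zero] at this
    exact this
  have s2 : Tendsto (fun i => Real.sqrt (I ((g i - g0) ^ 2))) F (𝓝 0) := by
    have := (Real.continuous_sqrt.tendsto 0).comp h2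
    rw [Real.sqrt_zero] at this
    exact this
  have hb : Tendsto (fun i => Real.sqrt (I ((f i - f0) ^ 2)) * Real.sqrt (I ((g i - g0) ^ 2))
      + Real.sqrt (I ((f i - f0) ^ 2)) * Real.sqrt (I (g0 ^ 2))
      + Real.sqrt (I (f0 ^ 2)) * Real.sqrt (I ((g i - g0) ^ 2))) F (𝓝 0) := by
    have := ((s1.mul s2).add (s1.mul_const (Real.sqrt (I (g0 ^ 2))))).add
      (s2.const_mul (Real.sqrt (I (f0 ^ 2))))
    simp only [mul_zero, zero_mul, add_zero] at this
    exact this
  rw [tendsto_iff_norm_sub_tendsto_zero]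
  apply squeeze_zero' (Eventually.of_forall fun i => norm_nonneg _) _ hb
  filter_upwards [hf, hg] with i hfi hgi
  have e : f i * g i = (f i - f0) * (g i - g0) + (f i - f0) * g0 + f0 * (g i - g0) + f0 * g0 := by
    ring
  have m1 := mem_sub hfi hf0
  have m2 := mem_sub hgi hg0
  have e2 : I (f i * g i) - I (f0 * g0)
      = I ((f i - f0) * (g i - g0)) + I ((f i - f0) * g0) + I (f0 * (g i - g0)) := by
    rw [e, I_add (mem_add (mem_add (mem_mul_22 m1 m2) (mem_mul_22 m1 hg0)) (mem_mul_22 hf0 m2))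
      (mem_mul_22 hf0 hg0), I_add (mem_add (mem_mul_22 m1 m2) (mem_mul_22 m1 hg0))
      (mem_mul_22 hf0 m2), I_add (mem_mul_22 m1 m2) (mem_mul_22 m1 hg0)]
    ring
  rw [e2, Real.norm_eq_abs]
  calc |I ((f i - f0) * (g i - g0)) + I ((f i - f0) * g0) + I (f0 * (g i - g0))|
      ≤ |I ((f i - f0) * (g i - g0)) + I ((f i - f0) * g0)| + |I (f0 * (g i - g0))| :=
        abs_add_le _ _
    _ ≤ |I ((f i - f0) * (g i - g0))| + |I ((f i - f0) * g0)| + |I (f0 * (g i - g0))| := by
        gcongr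
        exact abs_add_le _ _
    _ ≤ _ := by
        gcongr
        · exact I_abs_le m1 m2
        · exact I_abs_le m1 hg0
        · exact I_abs_le hf0 m2

/-- dominated convergence along a countably generated filter -/
theorem tendsto_int_of_bdd {ι : Type*} {F : Filter ι} [F.IsCountablyGenerated] {f : M →ₘ[m] ℝ}
    (hf : MemLp f 2 m) {P : ι → M → ℝ} {K : ℝ} (hm : ∀ᶠ i in F, AEStronglyMeasurable (P i) m)
    (hK : ∀ᶠ i in F, ∀ᵐ x ∂m, |P i x| ≤ K)
    (h : ∀ᵐ x ∂m, Tendsto (fun i => P i x) F (𝓝 0)) :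
    Tendsto (fun i => ∫ x, f x ^ 2 * P i x ∂m) F (𝓝 0) := by
  have h0 : (0 : ℝ) = ∫ x : M, (0 : ℝ) ∂m := by simp
  have hint : Integrable (fun x => f x ^ 2) m := hf.integrable_sq
  rw [h0]
  apply tendsto_integral_filter_of_dominated_convergence (fun x => f x ^ 2 * |K|)
  · filter_upwards [hm] with i hi
    exact hint.aestronglyMeasurable.mul hi
  · filter_upwards [hK] with i hi
    filter_upwards [hi] with x hx
    rw [Real.norm_eq_abs, abs_mul, abs_of_nonneg (sq_nonneg _)]
    exact mul_le_mul_of_nonneg_left (hx.trans (le_abs_self _)) (sq_nonneg _)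
  · exact hint.mul_const _
  · filter_upwards [h] with x hx
    have := hx.const_mul (f x ^ 2)
    rw [mul_zero] at this
    exact this

/-! ### an elementary inequality for the exponential -/

theorem exp_sub_le {a b K : ℝ} (ha : Real.exp a ≤ K) (hb : Real.exp b ≤ K) :
    |Real.exp a - Real.exp b| ≤ K * |a - b| := by
  have key : ∀ u v : ℝ, u ≤ v → Real.exp v ≤ K → |Real.exp v - Real.exp u| ≤ K * |v - u| := by
    intro u v huv hv
    have h1 : Real.exp u ≤ Real.exp v := Real.exp_le_exp.2 huv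
    rw [abs_of_nonneg (by linarith), abs_of_nonneg (by linarith)]
    have h2 : 1 + (u - v) ≤ Real.exp (u - v) := by
      have := Real.add_one_le_exp (u - v)
      linarith
    have h3 : Real.exp u = Real.exp v * Real.exp (u - v) := by
      rw [← Real.exp_add]; congr 1; ring
    have h4 : Real.exp v - Real.exp u ≤ Real.exp v * (v - u) := by
      rw [h3]
      nlinarith [Real.exp_pos v]
    exact h4.trans (mul_le_mul_of_nonneg_right hv (by linarith))
  rcases le_total a b with h | h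
  · rw [abs_sub_comm, abs_sub_comm a b]
    exact key a b h hb
  · exact key b a h ha

/-! ### the weights -/

section weight

variable {t0 T ε B Lt : ℝ} {z : ℝ → M → ℝ}

/-- the weight as a class -/
theorem exists_weight (hε : 0 < ε) (hzm : ∀ t, AEMeasurable (z t) m)
    (hB : ∀ᵐ x ∂m, ∀ t ∈ Icc t0 T, |z t x| ≤ B)
    (hL : ∀ᵐ x ∂m, ∀ t ∈ Icc t0 T, ∀ s ∈ Icc t0 T, |z t x - z s x| ≤ Lt * |t - s|) :
    ∃ W : ℝ → M →ₘ[m] ℝ, (∀ t, ∀ᵐ x ∂m, W t x = Real.exp (2 * z t x / ε)) ∧
      (∀ t ∈ Icc t0 T, ∀ᵐ x ∂m, |W t x| ≤ Real.exp (2 * B / ε)) ∧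
      (∀ t ∈ Icc t0 T, ∀ s ∈ Icc t0 T, ∀ᵐ x ∂m,
        |W t x - W s x| ≤ Real.exp (2 * B / ε) * (2 / ε * Lt) * |t - s|) := by
  have hmeas : ∀ t, AEStronglyMeasurable (fun x => Real.exp (2 * z t x / ε)) m := fun t =>
    (Real.measurable_exp.comp_aemeasurable (((hzm t).const_mul 2).div_const ε)).aestronglyMeasurable
  have hW : ∀ t, ∀ᵐ x ∂m, (AEEqFun.mk _ (hmeas t) : M →ₘ[m] ℝ) x = Real.exp (2 * z t x / ε) :=
    fun t => AEEqFun.coeFn_mk _ (hmeas t)
  have hexp : ∀ a : ℝ, |a| ≤ B → Real.exp (2 * a / ε) ≤ Real.exp (2 * B / ε) := by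
    intro a ha
    apply Real.exp_le_exp.2
    have : a ≤ B := (le_abs_self a).trans ha
    gcongr
  refine ⟨fun t => AEEqFun.mk _ (hmeas t), hW, ?_, ?_⟩
  · intro t ht
    filter_upwards [hW t, hB] with x a1 a2
    rw [a1, abs_of_pos (Real.exp_pos _)]
    exact hexp _ (a2 t ht)
  · intro t ht s hs
    filter_upwards [hW t, hW s, hB, hL] with x a1 a2 a3 a4
    rw [a1, a2]
    refine (exp_sub_le (hexp _ (a3 t ht)) (hexp _ (a3 s hs))).trans ?_
    have e : 2 * z t x / ε - 2 * z s x / ε = 2 / ε * (z t x - z s x) := by ring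
    rw [e, abs_mul, abs_of_pos (by positivity : (0:ℝ) < 2 / ε)]
    have h1 := a4 t ht s hs
    have h2 : 0 < Real.exp (2 * B / ε) := Real.exp_pos _
    have h3 : 0 < 2 / ε := by positivity
    calc Real.exp (2 * B / ε) * (2 / ε * |z t x - z s x|)
        ≤ Real.exp (2 * B / ε) * (2 / ε * (Lt * |t - s|)) := by gcongr
      _ = Real.exp (2 * B / ε) * (2 / ε * Lt) * |t - s| := by ring

end weight

/-! ### The weighted estimate for curves of classes -/

section main

variable (hC : IsDir C) {t0 T ε B Lt : ℝ} {z : ℝ → M → ℝ} {h l : ℝ → M →ₘ[m] ℝ}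

include hC

/-- **The weighted `L²` estimate.** `h` solves `∂ₜ h = (ε/2) Δ h`, `z` is a subsolution of
`∂ₜ z + |∇ z|²/2 = 0`; then the integral of `h² exp(2 z/ε)` does not increase. -/
theorem davies (hε : 0 < ε) (hzm : ∀ t, AEMeasurable (z t) m)
    (hB : ∀ᵐ x ∂m, ∀ t ∈ Icc t0 T, |z t x| ≤ B)
    (hL : ∀ᵐ x ∂m, ∀ t ∈ Icc t0 T, ∀ s ∈ Icc t0 T, |z t x - z s x| ≤ Lt * |t - s|)
    (hHJ : ∀ t ∈ Ioo t0 T, ∃ (c : ℝ) (ζ : M →ₘ[m] ℝ), ζ ∈ C.A ∧ MemLp (C.Γ ζ ζ) ∞ m ∧
      (∀ᵐ x ∂m, z t x = c + ζ x) ∧ ∀ᵐ x ∂m, ∀ η > 0, ∀ᶠ s in 𝓝[>] t,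
        z s x - z t x ≤ (s - t) * (-(1 / 2) * C.Γ ζ ζ x + η))
    (hh : ∀ t ∈ Icc t0 T, MemLp (h t) 2 m)
    (hcont : ∀ t ∈ Icc t0 T, Tendsto (fun s => I ((h s - h t) ^ 2)) (𝓝[Icc t0 T] t) (𝓝 0))
    (hl : ∀ t ∈ Ioo t0 T, C.IsLap (h t) (l t))
    (hder : ∀ t ∈ Ioo t0 T, Tendsto (fun s => I (((s - t)⁻¹ • (h s - h t) - (ε / 2) • l t) ^ 2))
      (𝓝[>] t) (𝓝 0)) :
    ∀ s t, t0 ≤ s → s ≤ t → t ≤ T →
      ∫ x, h t x ^ 2 * Real.exp (2 * z t x / ε) ∂m ≤
        ∫ x, h s x ^ 2 * Real.exp (2 * z s x / ε) ∂m := by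
  obtain ⟨W, hW, hWK, hWL⟩ := exists_weight hε hzm hB hL
  set K : ℝ := Real.exp (2 * B / ε) with hK
  set K' : ℝ := K * (2 / ε * Lt) with hK'
  have hKpos : 0 < K := Real.exp_pos _
  have hWt : ∀ t ∈ Icc t0 T, MemLp (W t) ∞ m := fun t ht => mem_top_iff.2 ⟨K, hWK t ht⟩
  -- the function
  set F : ℝ → ℝ := fun t => I (h t * (h t * W t)) with hF
  have hFe : ∀ t, ∫ x, h t x ^ 2 * Real.exp (2 * z t x / ε) ∂m = F t := by
    intro t
    apply integral_congr_ae
    filter_upwards [hW t, mul_ae (h t) (h t * W t), mul_ae (h t) (W t)] with x a1 a2 a3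
    rw [a2, a3, a1]
    ring
  -- continuity
  have hgW : ∀ t ∈ Icc t0 T, Tendsto (fun s => I ((h s * W s - h t * W t) ^ 2))
      (𝓝[Icc t0 T] t) (𝓝 0) := by
    intro t ht
    have hb : Tendsto (fun s => 2 * (K ^ 2 * I ((h s - h t) ^ 2))
        + 2 * ((K' * |s - t|) ^ 2 * I (h t ^ 2))) (𝓝[Icc t0 T] t) (𝓝 0) := by
      have h1 := ((hcont t ht).const_mul (K ^ 2)).const_mul 2
      have h2 : Tendsto (fun s : ℝ => 2 * ((K' * |s - t|) ^ 2 * I (h t ^ 2))) (𝓝[Icc t0 T] t)
          (𝓝 (2 * ((K' * |t - t|) ^ 2 * I (h t ^ 2)))) := by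
        apply Continuous.continuousWithinAt
        fun_prop
      have := h1.add h2
      simp only [sub_self, abs_zero, mul_zero, zero_mul, add_zero] at this
      simpa using this
    apply squeeze_zero' (Eventually.of_forall fun s => I_sq_nonneg _) _ hb
    filter_upwards [self_mem_nhdsWithin] with s hs
    have e : h s * W s - h t * W t = (h s - h t) * W s + h t * (W s - W t) := by ring
    rw [e]
    have m1 := mem_sub (hh s hs) (hh t ht)
    have m2 : MemLp (W s - W t : M →ₘ[m] ℝ) ∞ m := mem_sub (hWt s hs) (hWt t ht)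
    refine (I_sq_add_le (mem_top_mul m1 (hWt s hs)) (mem_top_mul (hh t ht) m2)).trans ?_
    have b1 := I_mul_sq_le m1 (hWK s hs)
    have b2 : I ((h t * (W s - W t)) ^ 2) ≤ (K' * |s - t|) ^ 2 * I (h t ^ 2) := by
      apply I_mul_sq_le (hh t ht)
      filter_upwards [sub_ae (W s) (W t), hWL s hs t ht] with x a1 a2
      rw [a1]
      exact a2
    linarith
  have hFc : ContinuousOn F (Icc t0 T) := by
    intro t ht
    apply I_mul_tendsto _ _ (hh t ht) (mem_top_mul (hh t ht) (hWt t ht)) (hcont t ht) (hgW t ht)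
    · filter_upwards [self_mem_nhdsWithin] with s hs
      exact hh s hs
    · filter_upwards [self_mem_nhdsWithin] with s hs
      exact mem_top_mul (hh s hs) (hWt s hs)
  -- the right derivative
  have hslope : ∀ t ∈ Ioo t0 T, ∀ r > 0, ∀ᶠ s in 𝓝[>] t, _root_.slope F t s < r := by
    intro t ht r hr
    have htI : t ∈ Icc t0 T := ⟨ht.1.le, ht.2.le⟩
    obtain ⟨c, ζ, hζA, hζΓ, hzζ, hev⟩ := hHJ t ht
    have hωt : ∀ᵐ x ∂m, W t x = Real.exp (2 * (c + ζ x) / ε) := by
      filter_upwards [hW t, hzζ] with x a1 a2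
      rw [a1, a2]
    obtain ⟨_, hst⟩ := static hC (hl t ht) hζA hζΓ c hε hωt
    have hIcc : ∀ᶠ s in 𝓝[>] t, s ∈ Icc t0 T ∧ t < s := by
      filter_upwards [Ioo_mem_nhdsGT ht.2] with s hs
      exact ⟨⟨ht.1.le.trans hs.1.le, hs.2.le⟩, hs.1⟩
    have hle : 𝓝[>] t ≤ 𝓝[Icc t0 T] t := by
      rw [nhdsWithin_le_iff]
      filter_upwards [hIcc] with s hs
      exact hs.1
    have hlt2 : MemLp (l t) 2 m := (hl t ht).2.1
    have m0 := mem_top_mul (hh t htI) (hWt t htI)
    -- first term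
    have hA : Tendsto (fun s => I (((s - t)⁻¹ • (h s - h t)) * ((h s + h t) * W s))) (𝓝[>] t)
        (𝓝 (I (((ε / 2) • l t) * ((h t + h t) * W t)))) := by
      apply I_mul_tendsto _ _ (mem_smul _ hlt2)
        (mem_top_mul (mem_add (hh t htI) (hh t htI)) (hWt t htI)) (hder t ht)
      · have hb : Tendsto (fun s => 2 * I ((h s * W s - h t * W t) ^ 2)
            + 2 * ((K' * |s - t|) ^ 2 * I (h t ^ 2))) (𝓝[>] t) (𝓝 0) := by
          have h1 := ((hgW t htI).mono_left hle).const_mul 2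
          have h2 : Tendsto (fun s : ℝ => 2 * ((K' * |s - t|) ^ 2 * I (h t ^ 2))) (𝓝[>] t)
              (𝓝 (2 * ((K' * |t - t|) ^ 2 * I (h t ^ 2)))) := by
            apply Continuous.continuousWithinAt
            fun_prop
          have := h1.add h2
          simp only [sub_self, abs_zero, mul_zero, zero_mul, add_zero] at this
          simpa using this
        apply squeeze_zero' (Eventually.of_forall fun s => I_sq_nonneg _) _ hb
        filter_upwards [hIcc] with s hs
        have e : (h s + h t) * W s - (h t + h t) * W t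
            = (h s * W s - h t * W t) + h t * (W s - W t) := by ring
        rw [e]
        have m1 := mem_top_mul (hh s hs.1) (hWt s hs.1)
        have m2 : MemLp (W s - W t : M →ₘ[m] ℝ) ∞ m := mem_sub (hWt s hs.1) (hWt t htI)
        refine (I_sq_add_le (mem_sub m1 m0) (mem_top_mul (hh t htI) m2)).trans ?_
        have b2 : I ((h t * (W s - W t)) ^ 2) ≤ (K' * |s - t|) ^ 2 * I (h t ^ 2) := by
          apply I_mul_sq_le (hh t htI)
          filter_upwards [sub_ae (W s) (W t), hWL s hs.1 t htI] with x a1 a2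
          rw [a1]
          exact a2
        linarith
      · filter_upwards [hIcc] with s hs
        exact mem_smul _ (mem_sub (hh s hs.1) (hh t htI))
      · filter_upwards [hIcc] with s hs
        exact mem_top_mul (mem_add (hh s hs.1) (hh t htI)) (hWt s hs.1)
    have hA' : I (((ε / 2) • l t) * ((h t + h t) * W t)) = ε * I (l t * (h t * W t)) := by
      rw [← I_smul]
      unfold I
      apply integral_congr_ae
      filter_upwards [mul_ae ((ε / 2) • l t) ((h t + h t) * W t), smul_ae (l t) (ε / 2),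
        mul_ae (h t + h t) (W t), add_ae (h t) (h t), smul_ae (l t * (h t * W t)) ε,
        mul_ae (l t) (h t * W t), mul_ae (h t) (W t)] with x a1 a2 a3 a4 a5 a6 a7
      rw [a1, a2, a3, a4, a5, a6, a7]
      ring
    -- second term
    obtain ⟨Kz, hKz⟩ := mem_top_iff.1 hζΓ
    set w : ℝ → M → ℝ := fun s x => Real.exp (2 * z s x / ε) with hw
    have hwm : ∀ s, AEStronglyMeasurable (w s) m := fun s =>
      (Real.measurable_exp.comp_aemeasurable
        (((hzm s).const_mul 2).div_const ε)).aestronglyMeasurable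
    have hwL : ∀ s ∈ Icc t0 T, ∀ᵐ x ∂m, |w s x - w t x| ≤ K' * |s - t| := by
      intro s hs
      filter_upwards [hWL s hs t htI, hW s, hW t] with x a1 a2 a3
      rw [a2, a3] at a1
      exact a1
    have hwK : ∀ᵐ x ∂m, |w t x| ≤ K := by
      filter_upwards [hWK t htI, hW t] with x a1 a2
      rw [a2] at a1
      exact a1
    set P : ℝ → M → ℝ := fun s x =>
      max ((s - t)⁻¹ * (w s x - w t x) + ε⁻¹ * (w t x * C.Γ ζ ζ x)) 0 with hP
    have hPm : ∀ s, AEStronglyMeasurable (P s) m := by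
      intro s
      have q3 : AEStronglyMeasurable (fun x => C.Γ ζ ζ x) m := AEEqFun.aestronglyMeasurable _
      have q4 := (((hwm s).sub (hwm t)).const_mul ((s - t)⁻¹)).add
        (((hwm t).mul q3).const_mul (ε⁻¹))
      exact q4.sup aestronglyMeasurable_const
    have hPK : ∀ᶠ s in 𝓝[>] t, ∀ᵐ x ∂m, |P s x| ≤ K' + ε⁻¹ * (K * |Kz|) := by
      filter_upwards [hIcc] with s hs
      filter_upwards [hwL s hs.1, hwK, hKz] with x a1 a2 a3
      have hst0 : 0 < s - t := by linarith [hs.2]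
      rw [abs_of_nonneg (le_max_right _ _)]
      have c1 : |(s - t)⁻¹ * (w s x - w t x)| ≤ K' := by
        rw [abs_mul, abs_of_pos (inv_pos.2 hst0)]
        rw [abs_of_pos hst0] at a1
        calc (s - t)⁻¹ * |w s x - w t x| ≤ (s - t)⁻¹ * (K' * (s - t)) := by gcongr
          _ = K' := by field_simp
      have c2 : |ε⁻¹ * (w t x * C.Γ ζ ζ x)| ≤ ε⁻¹ * (K * |Kz|) := by
        rw [abs_mul, abs_of_pos (inv_pos.2 hε), abs_mul]
        exact mul_le_mul_of_nonneg_left (mul_le_mul a2 (a3.trans (le_abs_self _)) (abs_nonneg _)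
          hKpos.le) (inv_pos.2 hε).le
      apply max_le
      · linarith [le_abs_self ((s - t)⁻¹ * (w s x - w t x)),
          le_abs_self (ε⁻¹ * (w t x * C.Γ ζ ζ x))]
      · have := (abs_nonneg _).trans c1
        have := (abs_nonneg _).trans c2
        linarith
    have hBt : Tendsto (fun s => ∫ x, h t x ^ 2 * P s x ∂m) (𝓝[>] t) (𝓝 0) := by
      apply tendsto_int_of_bdd (hh t htI) (K := K' + ε⁻¹ * (K * |Kz|))
        (Eventually.of_forall hPm) hPK
      filter_upwards [hev, hL, hB] with x a1 a2 a3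
      -- pointwise limit
      have hup : ∀ η > 0, ∀ᶠ s in 𝓝[>] t,
          (s - t)⁻¹ * (w s x - w t x) ≤ w t x * (((s - t)⁻¹ *
            (Real.exp ((s - t) * (2 / ε * (-(1 / 2) * C.Γ ζ ζ x + η))) - 1))) := by
        intro η hη
        filter_upwards [a1 η hη, self_mem_nhdsWithin] with s b1 b2
        have hst0 : 0 < s - t := by
          have : t < s := b2
          linarith
        have e1 : w s x = w t x * Real.exp (2 / ε * (z s x - z t x)) := by
          simp only [hw]
          rw [← Real.exp_add]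
          congr 1
          ring
        have e2 : Real.exp (2 / ε * (z s x - z t x))
            ≤ Real.exp ((s - t) * (2 / ε * (-(1 / 2) * C.Γ ζ ζ x + η))) := by
          apply Real.exp_le_exp.2
          calc 2 / ε * (z s x - z t x)
              ≤ 2 / ε * ((s - t) * (-(1 / 2) * C.Γ ζ ζ x + η)) := by gcongr
            _ = _ := by ring
        have hwpos : 0 < w t x := Real.exp_pos _
        have e3 : w s x - w t x ≤ w t x *
            (Real.exp ((s - t) * (2 / ε * (-(1 / 2) * C.Γ ζ ζ x + η))) - 1) := by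
          rw [e1]
          have := mul_le_mul_of_nonneg_left e2 hwpos.le
          linarith
        calc (s - t)⁻¹ * (w s x - w t x)
            ≤ (s - t)⁻¹ * (w t x *
              (Real.exp ((s - t) * (2 / ε * (-(1 / 2) * C.Γ ζ ζ x + η))) - 1)) :=
              mul_le_mul_of_nonneg_left e3 (inv_pos.2 hst0).le
          _ = _ := by ring
      have hlim : ∀ a : ℝ, Tendsto (fun s => (s - t)⁻¹ * (Real.exp ((s - t) * a) - 1)) (𝓝[>] t)
          (𝓝 a) := by
        intro a
        have hd : HasDerivAt (fun s : ℝ => Real.exp ((s - t) * a)) (Real.exp ((t - t) * a) * a)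
            t := by
          have h1 : HasDerivAt (fun s : ℝ => (s - t) * a) ((1 - 0) * a) t :=
            ((hasDerivAt_id t).sub (hasDerivAt_const t t)).mul_const a
          have h2 : (1 - 0) * a = a := by ring
          rw [h2] at h1
          exact h1.exp
        have h3 := hd.hasDerivWithinAt (s := Ioi t)
        rw [hasDerivWithinAt_iff_tendsto_slope' (by simp)] at h3
        have h4 : Real.exp ((t - t) * a) * a = a := by simp
        rw [h4] at h3
        refine h3.congr fun s => ?_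
        rw [slope_def_field]
        simp only [sub_self, zero_mul, Real.exp_zero]
        rw [div_eq_inv_mul]
      rw [tendsto_order]
      constructor
      · intro b hb
        exact Eventually.of_forall fun s => lt_of_lt_of_le hb (le_max_right _ _)
      · intro b hb
        have hwpos : 0 < w t x := Real.exp_pos _
        -- choose `η`
        set η : ℝ := b * ε / (4 * w t x) with hη
        have hηpos : 0 < η := by positivity
        have l1 := ((hlim (2 / ε * (-(1 / 2) * C.Γ ζ ζ x + η))).const_mul (w t x)).add_const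
          (ε⁻¹ * (w t x * C.Γ ζ ζ x))
        have l2 : w t x * (2 / ε * (-(1 / 2) * C.Γ ζ ζ x + η)) + ε⁻¹ * (w t x * C.Γ ζ ζ x)
            = b / 2 := by
          rw [hη]
          field_simp
          ring
        rw [l2] at l1
        filter_upwards [hup η hηpos, l1.eventually (gt_mem_nhds (by linarith : b / 2 < b))]
          with s c1 c2
        apply max_lt _ hb
        linarith
    -- the inequality
    have hint : Integrable (fun x => h t x ^ 2) m := (hh t htI).integrable_sq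
    have hineq : ∀ᶠ s in 𝓝[>] t, _root_.slope F t s
        ≤ I (((s - t)⁻¹ • (h s - h t)) * ((h s + h t) * W s)) + ∫ x, h t x ^ 2 * P s x ∂m
          - ε⁻¹ * I (h t ^ 2 * (W t * C.Γ ζ ζ)) := by
      filter_upwards [hIcc, hPK] with s hs hPs
      have hst0 : 0 < s - t := by linarith [hs.2]
      have m1 := mem_sub (hh s hs.1) (hh t htI)
      have m2 := mem_top_mul (mem_add (hh s hs.1) (hh t htI)) (hWt s hs.1)
      have m3 : MemLp (W s - W t : M →ₘ[m] ℝ) ∞ m := mem_sub (hWt s hs.1) (hWt t htI)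
      have e0 : F s - F t = I ((h s - h t) * ((h s + h t) * W s))
          + I (h t * (h t * (W s - W t))) := by
        have e1 : h s * (h s * W s) = (h s - h t) * ((h s + h t) * W s)
            + h t * (h t * (W s - W t)) + h t * (h t * W t) := by ring
        simp only [hF]
        rw [e1, I_add (mem_add (mem_mul_22 m1 m2) (mem_mul_22 (hh t htI)
          (mem_top_mul (hh t htI) m3))) (mem_mul_22 (hh t htI) m0),
          I_add (mem_mul_22 m1 m2) (mem_mul_22 (hh t htI) (mem_top_mul (hh t htI) m3))]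
        ring
      rw [slope_def_field, div_eq_inv_mul, e0, mul_add]
      have e2 : (s - t)⁻¹ * I ((h s - h t) * ((h s + h t) * W s))
          = I (((s - t)⁻¹ • (h s - h t)) * ((h s + h t) * W s)) := by
        rw [← I_smul, smul_mul_assoc]
      have hPint : Integrable (fun x => h t x ^ 2 * P s x) m := by
        refine Integrable.mono' (hint.mul_const (K' + ε⁻¹ * (K * |Kz|)))
          (hint.aestronglyMeasurable.mul (hPm s)) ?_
        filter_upwards [hPs] with x hx
        rw [Real.norm_eq_abs, abs_mul, abs_of_nonneg (sq_nonneg _)]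
        exact mul_le_mul_of_nonneg_left hx (sq_nonneg _)
      have m4 : MemLp (h t ^ 2 * (W t * C.Γ ζ ζ) : M →ₘ[m] ℝ) 1 m :=
        mem_top_mul (mem_sq (hh t htI)) (mem_mul_top (hWt t htI) hζΓ)
      have e3 : (s - t)⁻¹ * I (h t * (h t * (W s - W t)))
          ≤ ∫ x, h t x ^ 2 * P s x ∂m - ε⁻¹ * I (h t ^ 2 * (W t * C.Γ ζ ζ)) := by
        rw [← I_smul, ← I_smul]
        unfold I
        rw [← integral_sub hPint (int_of_mem (mem_smul _ m4))]
        apply integral_mono_ae (int_of_mem (mem_smul _ (mem_mul_22 (hh t htI)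
          (mem_top_mul (hh t htI) m3)))) (hPint.sub (int_of_mem (mem_smul _ m4)))
        filter_upwards [smul_ae (h t * (h t * (W s - W t))) ((s - t)⁻¹),
          mul_ae (h t) (h t * (W s - W t)), mul_ae (h t) (W s - W t), sub_ae (W s) (W t),
          smul_ae (h t ^ 2 * (W t * C.Γ ζ ζ)) (ε⁻¹), mul_ae (h t ^ 2) (W t * C.Γ ζ ζ),
          sq_ae (h t), mul_ae (W t) (C.Γ ζ ζ), hW s, hW t]
          with x a1 a2 a3 a4 a5 a6 a7 a8 a9 a10
        simp only [Pi.sub_apply]
        rw [a1, a2, a3, a4, a5, a6, a7, a8]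
        have b1 : (s - t)⁻¹ * (w s x - w t x) + ε⁻¹ * (w t x * C.Γ ζ ζ x) ≤ P s x :=
          le_max_left _ _
        have b2 := mul_le_mul_of_nonneg_left b1 (sq_nonneg (h t x))
        rw [a9, a10]
        simp only [hw] at b2
        nlinarith [b2]
      linarith
    have hlimit := (hA.add hBt).sub_const (ε⁻¹ * I (h t ^ 2 * (W t * C.Γ ζ ζ)))
    rw [hA'] at hlimit
    have hneg : ε * I (l t * (h t * W t)) + 0 - ε⁻¹ * I (h t ^ 2 * (W t * C.Γ ζ ζ)) < r := by
      linarith
    filter_upwards [hineq, hlimit.eventually (gt_mem_nhds hneg)] with s b1 b2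
    exact lt_of_le_of_lt b1 b2
  -- monotone on the interior
  have hmono : ∀ s t, t0 < s → s ≤ t → t ≤ T → F t ≤ F s := by
    intro s t hs hst htT
    have hsub : Icc s t ⊆ Icc t0 T := Icc_subset_Icc hs.le htT
    refine image_le_of_liminf_slope_right_le_deriv_boundary (f := F) (a := s) (b := t)
      (hFc.mono hsub) (B := fun _ => F s) (B' := fun _ => 0) le_rfl continuousOn_const
      (fun x _ => hasDerivWithinAt_const _ _ _) ?_ ⟨hst, le_rfl⟩
    intro x hx r hr
    exact (hslope x ⟨lt_of_lt_of_le hs hx.1, lt_of_lt_of_le hx.2 htT⟩ r hr).frequently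
  intro s t hs hst htT
  rw [hFe, hFe]
  rcases eq_or_lt_of_le hs with rfl | hs'
  · -- continuity at `t0`
    rcases eq_or_lt_of_le hst with rfl | hst'
    · exact le_rfl
    · have hc := (hFc t0 ⟨le_rfl, hst.trans htT⟩).mono_left
        (show 𝓝[Ioo t0 t] t0 ≤ 𝓝[Icc t0 T] t0 from nhdsWithin_mono _
          fun y hy => ⟨hy.1.le, hy.2.le.trans htT⟩)
      haveI : (𝓝[Ioo t0 t] t0).NeBot := by
        rw [← mem_closure_iff_nhdsWithin_neBot, closure_Ioo hst'.ne]
        exact ⟨le_rfl, hst'.le⟩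
      refine ge_of_tendsto hc ?_
      filter_upwards [self_mem_nhdsWithin] with y hy
      exact hmono y t hy.1 hy.2.le htT
  · exact hmono s t hs' hst htT

end main

end Vale.Agent.P233.H71
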