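import Vale.Agent.P233.Gig.Defs
import Vale.Agent.P233.H71.Dav2

set_option linter.all false

open MeasureTheory Filter Topology Set
open scoped ENNReal NNReal

universe u

namespace Vale.Agent.P233.H71

variable {M : Type u} [MeasurableSpace M] {m : Measure M} {C : Calc m} {Kc : ℝ}
  {P : ℝ → (M →ₘ[m] ℝ) → (M →ₘ[m] ℝ)}

/-! ### The heat semigroup with time change `s ↦ ε (s - t0)/2` -/

section curve

variable (hP : Heat C Kc P) {ε t0 : ℝ} {f : M →ₘ[m] ℝ}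

include hP

theorem curve_mem (hε : 0 < ε) (hf : MemLp f 2 m) {t : ℝ} (ht : t0 ≤ t) :
    MemLp (P (ε * (t - t0) / 2) f) 2 m :=
  hP.mem _ (by have : 0 ≤ t - t0 := by linarith
               positivity) f hf

theorem curve_cont (hε : 0 < ε) (hf : MemLp f 2 m) {t : ℝ} (ht : t0 ≤ t) :
    Tendsto (fun s => I ((P (ε * (s - t0) / 2) f - P (ε * (t - t0) / 2) f) ^ 2))
      (𝓝[Ici t0] t) (𝓝 0) := by
  have h0 : 0 ≤ ε * (t - t0) / 2 := by
    have : 0 ≤ t - t0 := by linarith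
    positivity
  have h1 := hP.cont f hf _ h0
  have h2 : Tendsto (fun s : ℝ => ε * (s - t0) / 2) (𝓝[Ici t0] t) (𝓝[Ici 0] (ε * (t - t0) / 2)) := by
    apply tendsto_nhdsWithin_of_tendsto_nhds_of_eventually_within
    · apply Continuous.continuousWithinAt
      fun_prop
    · filter_upwards [self_mem_nhdsWithin] with s hs
      have : 0 ≤ s - t0 := by
        have : t0 ≤ s := hs
        linarith
      show 0 ≤ ε * (s - t0) / 2
      positivity
  exact h1.comp h2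

theorem curve_deriv (hε : 0 < ε) (hf : MemLp f 2 m) {t : ℝ} (ht : t0 < t) :
    Tendsto (fun s => I (((s - t)⁻¹ • (P (ε * (s - t0) / 2) f - P (ε * (t - t0) / 2) f)
      - (ε / 2) • C.lap (P (ε * (t - t0) / 2) f)) ^ 2)) (𝓝[≠] t) (𝓝 0) := by
  have h0 : 0 < ε * (t - t0) / 2 := by
    have : 0 < t - t0 := by linarith
    positivity
  have h1 := hP.deriv f hf _ h0
  have h2 : Tendsto (fun s : ℝ => ε * (s - t0) / 2) (𝓝[≠] t) (𝓝[≠] (ε * (t - t0) / 2)) := by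
    apply tendsto_nhdsWithin_of_tendsto_nhds_of_eventually_within
    · apply Continuous.continuousWithinAt
      fun_prop
    · filter_upwards [self_mem_nhdsWithin] with s hs
      intro h
      apply hs
      have h3 : ε * (s - t0) / 2 = ε * (t - t0) / 2 := h
      have h4 : ε * (s - t0) = ε * (t - t0) := by linarith
      have := mul_left_cancel₀ hε.ne' h4
      show s = t
      linarith
  have h3 := (h1.comp h2).const_mul ((ε / 2) ^ 2)
  rw [mul_zero] at h3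
  refine h3.congr' ?_
  filter_upwards [self_mem_nhdsWithin] with s hs
  have hst : s - t ≠ 0 := sub_ne_zero.2 hs
  simp only [Function.comp_apply]
  rw [← I_smul]
  congr 1
  have e1 : ε * (s - t0) / 2 - ε * (t - t0) / 2 = (ε / 2) * (s - t) := by ring
  have e2 : (s - t)⁻¹ = (ε / 2) * ((ε / 2) * (s - t))⁻¹ := by
    field_simp
  rw [e1]
  conv_rhs => rw [e2]
  rw [mul_smul, ← smul_sub, smul_pow]

theorem curve_lap (hε : 0 < ε) (hf : MemLp f 2 m) {t : ℝ} (ht : t0 < t) :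
    C.IsLap (P (ε * (t - t0) / 2) f) (C.lap (P (ε * (t - t0) / 2) f)) :=
  (hP.isLap _ (by have : 0 < t - t0 := by linarith
                  positivity) f hf).1

end curve

/-! ### weighted estimates for the semigroup -/

section heat

variable (hC : IsDir C) (hP : Heat C Kc P) {t0 T ε B Lt : ℝ} {z : ℝ → M → ℝ} {f : M →ₘ[m] ℝ}

include hC hP

/-- **Weighted `L²` estimate** for `t ↦ P (ε (t - t0)/2) f` on `[t0,T]`. -/
theorem heat_davies (hε : 0 < ε) (hf : MemLp f 2 m) (hzm : ∀ t, AEMeasurable (z t) m)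
    (hB : ∀ᵐ x ∂m, ∀ t ∈ Icc t0 T, |z t x| ≤ B)
    (hL : ∀ᵐ x ∂m, ∀ t ∈ Icc t0 T, ∀ s ∈ Icc t0 T, |z t x - z s x| ≤ Lt * |t - s|)
    (hHJ : ∀ t ∈ Ioo t0 T, ∃ (c : ℝ) (ζ : M →ₘ[m] ℝ), ζ ∈ C.A ∧ MemLp (C.Γ ζ ζ) ∞ m ∧
      (∀ᵐ x ∂m, z t x = c + ζ x) ∧ ∀ᵐ x ∂m, ∀ η > 0, ∀ᶠ s in 𝓝[>] t,
        z s x - z t x ≤ (s - t) * (-(1 / 2) * C.Γ ζ ζ x + η)) :
    ∀ s t, t0 ≤ s → s ≤ t → t ≤ T →
      ∫ x, P (ε * (t - t0) / 2) f x ^ 2 * Real.exp (2 * z t x / ε) ∂m ≤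
        ∫ x, P (ε * (s - t0) / 2) f x ^ 2 * Real.exp (2 * z s x / ε) ∂m := by
  refine davies hC (h := fun t => P (ε * (t - t0) / 2) f)
    (l := fun t => C.lap (P (ε * (t - t0) / 2) f)) hε hzm hB hL hHJ
    (fun t ht => curve_mem hP hε hf ht.1) (fun t ht => ?_)
    (fun t ht => curve_lap hP hε hf ht.1) (fun t ht => ?_)
  · exact (curve_cont hP hε hf ht.1).mono_left (nhdsWithin_mono _ fun y hy => hy.1)
  · exact (curve_deriv hP hε hf ht.1).mono_left (nhdsWithin_mono _ fun y hy => ne_of_gt hy)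

/-- the estimate from the initial time -/
theorem heat_davies_zero (hε : 0 < ε) (hf : MemLp f 2 m) (hzm : ∀ t, AEMeasurable (z t) m)
    (hT : t0 ≤ T) (hB : ∀ᵐ x ∂m, ∀ t ∈ Icc t0 T, |z t x| ≤ B)
    (hL : ∀ᵐ x ∂m, ∀ t ∈ Icc t0 T, ∀ s ∈ Icc t0 T, |z t x - z s x| ≤ Lt * |t - s|)
    (hHJ : ∀ t ∈ Ioo t0 T, ∃ (c : ℝ) (ζ : M →ₘ[m] ℝ), ζ ∈ C.A ∧ MemLp (C.Γ ζ ζ) ∞ m ∧
      (∀ᵐ x ∂m, z t x = c + ζ x) ∧ ∀ᵐ x ∂m, ∀ η > 0, ∀ᶠ s in 𝓝[>] t,
        z s x - z t x ≤ (s - t) * (-(1 / 2) * C.Γ ζ ζ x + η)) :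
    ∫ x, P (ε * (T - t0) / 2) f x ^ 2 * Real.exp (2 * z T x / ε) ∂m ≤
      ∫ x, f x ^ 2 * Real.exp (2 * z t0 x / ε) ∂m := by
  have h1 := heat_davies hC hP hε hf hzm hB hL hHJ t0 T le_rfl hT le_rfl
  have e : ε * (t0 - t0) / 2 = 0 := by ring
  rw [e, hP.zero f hf] at h1
  exact h1

/-- **Weighted `L²` estimate, time independent weight.** -/
theorem heat_weight {ζ : M →ₘ[m] ℝ} (hζ : ζ ∈ C.A) {L : ℝ} (hζL : ∀ᵐ x ∂m, C.Γ ζ ζ x ≤ L)
    (c : ℝ) (hf : MemLp f 2 m) {s : ℝ} (hs : 0 ≤ s) :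
    ∫ x, P s f x ^ 2 * Real.exp (2 * (c + ζ x)) ∂m ≤
      Real.exp (2 * L * s) * ∫ x, f x ^ 2 * Real.exp (2 * (c + ζ x)) ∂m := by
  obtain ⟨Kz, hKz⟩ := mem_top_iff.1 hζ.2
  have hΓt : MemLp (C.Γ ζ ζ) ∞ m := by
    refine mem_top_iff.2 ⟨L, ?_⟩
    filter_upwards [hζL, hC.Γ_nonneg_ae hζ.1] with x a1 a2
    rwa [abs_of_nonneg a2]
  have hζ2 : ((2 : ℝ) • ζ : M →ₘ[m] ℝ) ∈ C.A := ⟨hC.smul_mem _ _ hζ.1, mem_smul _ hζ.2⟩
  have hΓ2 : C.Γ ((2 : ℝ) • ζ) ((2 : ℝ) • ζ) = (4 : ℝ) • C.Γ ζ ζ := by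
    rw [hC.smul_left _ _ hζ.1 _ (hC.smul_mem _ _ hζ.1), hC.Γ_smul_right _ hζ.1 hζ.1, smul_smul]
    norm_num
  set z : ℝ → M → ℝ := fun t x => 2 * (c + ζ x) - 2 * L * t with hz
  have key := heat_davies_zero hC hP (t0 := 0) (T := s) (ε := 2) (z := z)
    (B := 2 * (|c| + |Kz|) + 2 * |L| * s) (Lt := 2 * |L|) two_pos hf ?_ hs ?_ ?_ ?_
  · have e1 : (2 : ℝ) * (s - 0) / 2 = s := by ring
    rw [e1] at key
    have e2 : ∀ x, P s f x ^ 2 * Real.exp (2 * z s x / 2)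
        = Real.exp (-(2 * L * s)) * (P s f x ^ 2 * Real.exp (2 * (c + ζ x))) := by
      intro x
      have : 2 * z s x / 2 = -(2 * L * s) + 2 * (c + ζ x) := by
        simp only [hz]; ring
      rw [this, Real.exp_add]
      ring
    have e3 : ∀ x, f x ^ 2 * Real.exp (2 * z 0 x / 2) = f x ^ 2 * Real.exp (2 * (c + ζ x)) := by
      intro x
      have : 2 * z 0 x / 2 = 2 * (c + ζ x) := by
        simp only [hz]; ring
      rw [this]
    simp only [e2, e3] at key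
    rw [integral_const_mul] at key
    have h1 := mul_le_mul_of_nonneg_left key (Real.exp_pos (2 * L * s)).le
    rw [← mul_assoc, ← Real.exp_add, add_neg_cancel, Real.exp_zero, one_mul] at h1
    exact h1
  · intro t
    have h1 : AEMeasurable (fun x => ζ x) m := (AEEqFun.aestronglyMeasurable ζ).aemeasurable
    exact ((h1.const_add c).const_mul 2).sub_const _
  · filter_upwards [hKz] with x a1 t ht
    simp only [hz]
    have h1 : |2 * (c + ζ x) - 2 * L * t| ≤ |2 * (c + ζ x)| + |2 * L * t| := abs_sub _ _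
    have h2 : |2 * (c + ζ x)| ≤ 2 * (|c| + |Kz|) := by
      rw [abs_mul, abs_two]
      have := (abs_add_le c (ζ x)).trans (add_le_add_right (a1.trans (le_abs_self _)) _)
      linarith
    have h3 : |2 * L * t| ≤ 2 * |L| * s := by
      rw [abs_mul, abs_mul, abs_two, abs_of_nonneg ht.1]
      exact mul_le_mul_of_nonneg_left ht.2 (by positivity)
    linarith
  · refine Eventually.of_forall fun x t ht r hr => ?_
    simp only [hz]
    have : 2 * (c + ζ x) - 2 * L * t - (2 * (c + ζ x) - 2 * L * r) = 2 * L * (r - t) := by ring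
    rw [this, abs_mul, abs_mul, abs_two, abs_sub_comm]
  · intro t ht
    refine ⟨2 * c - 2 * L * t, (2 : ℝ) • ζ, hζ2, ?_, ?_, ?_⟩
    · rw [hΓ2]
      exact mem_smul _ hΓt
    · filter_upwards [smul_ae ζ (2 : ℝ)] with x a1
      rw [a1]
      simp only [hz]
      ring
    · rw [hΓ2]
      filter_upwards [smul_ae (C.Γ ζ ζ) (4 : ℝ), hζL] with x a1 a2 η hη
      filter_upwards [self_mem_nhdsWithin] with r hr
      have hr' : t < r := hr
      have hrt : 0 < r - t := by linarith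
      rw [a1]
      simp only [hz]
      have : 2 * (c + ζ x) - 2 * L * r - (2 * (c + ζ x) - 2 * L * t) = (r - t) * (-(2 * L)) := by
        ring
      rw [this]
      apply mul_le_mul_of_nonneg_left _ hrt.le
      linarith

end heat

end Vale.Agent.P233.H71
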