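import Vale.Agent.P233.H71.Dav3

set_option linter.all false

open MeasureTheory Filter Topology Set
open scoped ENNReal NNReal

universe u

namespace Vale.Agent.P233.H71

/-! ### Dini inequalities of explicit weights -/

/-- `∂ₜ (a/(2(t+s₀))) = -a/(2 (t+s₀)²)`, one-sided form -/
theorem dini_inv {a s₀ t : ℝ} (ht : 0 < t + s₀) :
    ∀ η > 0, ∀ᶠ s in 𝓝[>] t, a / (2 * (s + s₀)) - a / (2 * (t + s₀)) ≤
      (s - t) * (-(1 / 2) * (a / (t + s₀) ^ 2) + η) := by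
  intro η hη
  have hc : Tendsto (fun s : ℝ => -(1 / 2) * (a / ((s + s₀) * (t + s₀)))) (𝓝[>] t)
      (𝓝 (-(1 / 2) * (a / ((t + s₀) * (t + s₀))))) := by
    apply ContinuousAt.continuousWithinAt
    have : (t + s₀) * (t + s₀) ≠ 0 := by positivity
    fun_prop (disch := exact this)
  have h1 : -(1 / 2) * (a / ((t + s₀) * (t + s₀))) < -(1 / 2) * (a / (t + s₀) ^ 2) + η := by
    rw [sq]; linarith
  filter_upwards [hc.eventually (gt_mem_nhds h1), self_mem_nhdsWithin] with s b1 b2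
  have hst : t < s := b2
  have hs : 0 < s + s₀ := by linarith
  have e : a / (2 * (s + s₀)) - a / (2 * (t + s₀))
      = (s - t) * (-(1 / 2) * (a / ((s + s₀) * (t + s₀)))) := by
    field_simp
    ring
  rw [e]
  exact mul_le_mul_of_nonneg_left b1.le (by linarith)

/-- radial potential: `z t = min (d²/(2(t+s₀)) - C₀) 0` -/
theorem dini_rad {d s₀ C₀ t : ℝ} (ht : 0 < t + s₀) :
    ∀ η > 0, ∀ᶠ s in 𝓝[>] t,
      min (d ^ 2 / (2 * (s + s₀)) - C₀) 0 - min (d ^ 2 / (2 * (t + s₀)) - C₀) 0 ≤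
      (s - t) * (-(1 / 2) * (if d ^ 2 < 2 * C₀ * (t + s₀) then (d / (t + s₀)) ^ 2 else 0) + η) := by
  intro η hη
  by_cases h : d ^ 2 < 2 * C₀ * (t + s₀)
  · rw [if_pos h]
    have h1 : d ^ 2 / (2 * (t + s₀)) < C₀ := by
      rw [div_lt_iff₀ (by positivity)]
      linarith
    filter_upwards [dini_inv (a := d ^ 2) ht η hη] with s b1
    rw [min_eq_left (by linarith : d ^ 2 / (2 * (t + s₀)) - C₀ ≤ 0), div_pow]
    have := min_le_left (d ^ 2 / (2 * (s + s₀)) - C₀) 0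
    linarith
  · rw [if_neg h]
    have h1 : C₀ ≤ d ^ 2 / (2 * (t + s₀)) := by
      rw [le_div_iff₀ (by positivity)]
      linarith [not_lt.1 h]
    filter_upwards [self_mem_nhdsWithin] with s b2
    have hst : t < s := b2
    rw [min_eq_right (by linarith : (0:ℝ) ≤ d ^ 2 / (2 * (t + s₀)) - C₀)]
    have := min_le_right (d ^ 2 / (2 * (s + s₀)) - C₀) 0
    have h2 : 0 ≤ (s - t) * (-(1 / 2) * 0 + η) := by
      apply mul_nonneg (by linarith)
      linarith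
    linarith

/-- `zr` of the common definitions -/
theorem dini_zr {M : Type*} [MetricSpace M] (p x : M) {s₀ C₀ t : ℝ} (ht : 0 < t + s₀) :
    ∀ η > 0, ∀ᶠ s in 𝓝[>] t, zr p s₀ C₀ s x - zr p s₀ C₀ t x ≤
      (s - t) * (-(1 / 2) * (if dist p x ^ 2 < 2 * C₀ * (t + s₀) then (dist p x / (t + s₀)) ^ 2
        else 0) + η) :=
  dini_rad ht

/-- weight at infinity: `z t = min (d², C₁)/(2 (t+s₀))` -/
theorem dini_out {d C₁ s₀ t : ℝ} (ht : 0 < t + s₀) :
    ∀ η > 0, ∀ᶠ s in 𝓝[>] t,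
      min (d ^ 2) C₁ / (2 * (s + s₀)) - min (d ^ 2) C₁ / (2 * (t + s₀)) ≤
      (s - t) * (-(1 / 2) * (min (d ^ 2) C₁ / (t + s₀) ^ 2) + η) :=
  dini_inv ht

/-! ### From an integral inequality to the Dini form -/

/-- If `z s - z t ≤ -½ ∫ₜˢ G` and `G ≥ G t - η` near `t⁺`, the Dini form holds. -/
theorem dini_of_integral {z G : ℝ → ℝ} {t T : ℝ} (htT : t < T)
    (hz : ∀ s ∈ Ioo t T, z s - z t ≤ -(1 / 2) * ∫ r in t..s, G r)
    (hi : ∀ s ∈ Ioo t T, IntervalIntegrable G volume t s)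
    (hG : ∀ η > 0, ∀ᶠ r in 𝓝[>] t, G t - η ≤ G r) :
    ∀ η > 0, ∀ᶠ s in 𝓝[>] t, z s - z t ≤ (s - t) * (-(1 / 2) * G t + η) := by
  intro η hη
  have h1 := hG η hη
  rw [eventually_nhdsWithin_iff, Metric.eventually_nhds_iff] at h1
  obtain ⟨δ, hδ, h2⟩ := h1
  filter_upwards [Ioo_mem_nhdsGT (lt_min htT (by linarith : t < t + δ))] with s hs
  have hsT : s ∈ Ioo t T := ⟨hs.1, lt_of_lt_of_le hs.2 (min_le_left _ _)⟩
  have hsδ : s < t + δ := lt_of_lt_of_le hs.2 (min_le_right _ _)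
  have hint : (s - t) * (G t - η) ≤ ∫ r in t..s, G r := by
    have h3 : ∫ r in t..s, (G t - η) = (s - t) * (G t - η) := by
      rw [intervalIntegral.integral_const, smul_eq_mul]
    rw [← h3]
    apply intervalIntegral.integral_mono_on_of_le_Ioo hs.1.le (by simp) (hi s hsT)
    intro r hr
    apply h2 _ hr.1
    rw [Real.dist_eq, abs_of_pos (by linarith [hr.1] : 0 < r - t)]
    linarith [hr.2]
  have := hz s hsT
  have hst : 0 < s - t := by linarith [hs.1]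
  nlinarith

/-! ### Gaffney -/

section heat

variable {M : Type u} [MeasurableSpace M] {m : Measure M} {C : Calc m} {Kc : ℝ}
  {P : ℝ → (M →ₘ[m] ℝ) → (M →ₘ[m] ℝ)}

variable (hC : IsDir C) (hP : Heat C Kc P) {f g ζ : M →ₘ[m] ℝ} {c r s : ℝ}

include hC hP

/-- Exponential weight: `∫ (Pₛ f)² e^{2α(c+ζ)} ≤ e^{2α² s} ∫ f² e^{2α(c+ζ)}` if `|∇ζ| ≤ 1`. -/
theorem heat_weight_one (hζ : ζ ∈ C.A) (h1 : ∀ᵐ x ∂m, C.Γ ζ ζ x ≤ 1) (hf : MemLp f 2 m)
    (c α : ℝ) (hs : 0 ≤ s) :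
    ∫ x, P s f x ^ 2 * Real.exp (2 * (α * (c + ζ x))) ∂m ≤
      Real.exp (2 * α ^ 2 * s) * ∫ x, f x ^ 2 * Real.exp (2 * (α * (c + ζ x))) ∂m := by
  have hζα : (α • ζ : M →ₘ[m] ℝ) ∈ C.A := ⟨hC.smul_mem _ _ hζ.1, mem_smul _ hζ.2⟩
  have hΓα : C.Γ (α • ζ) (α • ζ) = (α ^ 2) • C.Γ ζ ζ := by
    rw [hC.smul_left _ _ hζ.1 _ (hC.smul_mem _ _ hζ.1), hC.Γ_smul_right _ hζ.1 hζ.1, smul_smul, sq]
  have hL : ∀ᵐ x ∂m, C.Γ (α • ζ) (α • ζ) x ≤ α ^ 2 := by
    rw [hΓα]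
    filter_upwards [smul_ae (C.Γ ζ ζ) (α ^ 2), h1] with x a1 a2
    rw [a1]
    nlinarith [sq_nonneg α]
  have key := heat_weight hC hP hζα hL (α * c) hf hs
  have e : ∀ h : M →ₘ[m] ℝ, ∫ x, h x ^ 2 * Real.exp (2 * (α * c + (α • ζ : M →ₘ[m] ℝ) x)) ∂m
      = ∫ x, h x ^ 2 * Real.exp (2 * (α * (c + ζ x))) ∂m := by
    intro h
    apply integral_congr_ae
    filter_upwards [smul_ae ζ α] with x a1
    rw [a1, ← mul_add]
  rw [e, e] at key
  exact key

theorem int_weight (hζ : ζ ∈ C.A) (hf : MemLp f 2 m) (c α : ℝ) :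
    Integrable (fun x => f x ^ 2 * Real.exp (2 * (α * (c + ζ x)))) m := by
  obtain ⟨Kz, hKz⟩ := mem_top_iff.1 hζ.2
  have hint : Integrable (fun x => f x ^ 2) m := hf.integrable_sq
  have hm : AEStronglyMeasurable (fun x => Real.exp (2 * (α * (c + ζ x)))) m := by
    have h1 : AEMeasurable (fun x => ζ x) m := (AEEqFun.aestronglyMeasurable ζ).aemeasurable
    exact (Real.measurable_exp.comp_aemeasurable
      (((h1.const_add c).const_mul α).const_mul 2)).aestronglyMeasurable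
  refine Integrable.mono' (hint.mul_const (Real.exp (2 * (|α| * (|c| + |Kz|)))))
    (hint.aestronglyMeasurable.mul hm) ?_
  filter_upwards [hKz] with x a1
  rw [Real.norm_eq_abs, abs_mul, abs_of_nonneg (sq_nonneg _), abs_of_pos (Real.exp_pos _)]
  apply mul_le_mul_of_nonneg_left _ (sq_nonneg _)
  apply Real.exp_le_exp.2
  have h1 : |c + ζ x| ≤ |c| + |Kz| :=
    (abs_add_le _ _).trans (add_le_add_right (a1.trans (le_abs_self _)) _)
  have h2 : α * (c + ζ x) ≤ |α| * (|c| + |Kz|) := by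
    calc α * (c + ζ x) ≤ |α * (c + ζ x)| := le_abs_self _
      _ = |α| * |c + ζ x| := abs_mul _ _
      _ ≤ _ := mul_le_mul_of_nonneg_left h1 (abs_nonneg _)
  linarith

/-- **Gaffney's estimate.** `f` vanishes where `c + ζ > 0`, and `c + ζ ≥ r` on `E`. -/
theorem gaffney (hζ : ζ ∈ C.A) (h1 : ∀ᵐ x ∂m, C.Γ ζ ζ x ≤ 1) (hf : MemLp f 2 m)
    (hr : 0 ≤ r) (hs : 0 < s) (hF : ∀ᵐ x ∂m, f x ≠ 0 → c + ζ x ≤ 0) {E : Set M}
    (hE : MeasurableSet E) (hEr : ∀ᵐ x ∂m, x ∈ E → r ≤ c + ζ x) :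
    ∫ x in E, P s f x ^ 2 ∂m ≤ Real.exp (-(r ^ 2 / (2 * s))) * ∫ x, f x ^ 2 ∂m := by
  set α : ℝ := r / (2 * s) with hα
  have hα0 : 0 ≤ α := by positivity
  have key := heat_weight_one hC hP hζ h1 hf c α hs.le
  have hPf : MemLp (P s f) 2 m := hP.mem _ hs.le f hf
  have hint : Integrable (fun x => f x ^ 2) m := hf.integrable_sq
  have hintP : Integrable (fun x => P s f x ^ 2) m := hPf.integrable_sq
  have b1 : ∫ x, f x ^ 2 * Real.exp (2 * (α * (c + ζ x))) ∂m ≤ ∫ x, f x ^ 2 ∂m := by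
    apply integral_mono_ae (int_weight hC hP hζ hf c α) hint
    filter_upwards [hF] with x a1
    by_cases h0 : f x = 0
    · simp [h0]
    · have h2 := a1 h0
      have h3 : Real.exp (2 * (α * (c + ζ x))) ≤ 1 := by
        rw [Real.exp_le_one_iff]
        nlinarith
      have := mul_le_mul_of_nonneg_left h3 (sq_nonneg (f x))
      linarith
  have b2 : Real.exp (2 * (α * r)) * ∫ x in E, P s f x ^ 2 ∂m ≤
      ∫ x, P s f x ^ 2 * Real.exp (2 * (α * (c + ζ x))) ∂m := by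
    rw [← integral_const_mul]
    calc ∫ x in E, Real.exp (2 * (α * r)) * P s f x ^ 2 ∂m
        ≤ ∫ x in E, P s f x ^ 2 * Real.exp (2 * (α * (c + ζ x))) ∂m := by
          apply integral_mono_ae (hintP.const_mul _).integrableOn
            (int_weight hC hP hζ hPf c α).integrableOn
          filter_upwards [ae_restrict_of_ae hEr, ae_restrict_mem hE] with x a1 a2
          have h2 := a1 a2
          have h3 : Real.exp (2 * (α * r)) ≤ Real.exp (2 * (α * (c + ζ x))) := by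
            apply Real.exp_le_exp.2
            nlinarith
          have := mul_le_mul_of_nonneg_right h3 (sq_nonneg (P s f x))
          linarith
      _ ≤ _ := setIntegral_le_integral (int_weight hC hP hζ hPf c α)
          (Eventually.of_forall fun x => mul_nonneg (sq_nonneg _) (Real.exp_pos _).le)
  have b3 : Real.exp (2 * (α * r)) * ∫ x in E, P s f x ^ 2 ∂m ≤
      Real.exp (2 * α ^ 2 * s) * ∫ x, f x ^ 2 ∂m :=
    b2.trans (key.trans (mul_le_mul_of_nonneg_left b1 (Real.exp_pos _).le))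
  have b4 := mul_le_mul_of_nonneg_left b3 (Real.exp_pos (-(2 * (α * r)))).le
  have e0 : Real.exp (-(2 * (α * r))) * Real.exp (2 * (α * r)) = 1 := by
    rw [← Real.exp_add, neg_add_cancel, Real.exp_zero]
  have e1 : Real.exp (-(2 * (α * r))) * Real.exp (2 * α ^ 2 * s)
      = Real.exp (-(r ^ 2 / (2 * s))) := by
    rw [← Real.exp_add]
    congr 1
    rw [hα]
    field_simp
    ring
  calc ∫ x in E, P s f x ^ 2 ∂m
      = Real.exp (-(2 * (α * r))) * (Real.exp (2 * (α * r)) * ∫ x in E, P s f x ^ 2 ∂m) := by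
        rw [← mul_assoc, e0, one_mul]
    _ ≤ Real.exp (-(2 * (α * r))) * (Real.exp (2 * α ^ 2 * s) * ∫ x, f x ^ 2 ∂m) := b4
    _ = _ := by rw [← mul_assoc, e1]

/-- **Gaffney's estimate, bilinear form.** -/
theorem gaffney_bil (hζ : ζ ∈ C.A) (h1 : ∀ᵐ x ∂m, C.Γ ζ ζ x ≤ 1) (hf : MemLp f 2 m)
    (hg : MemLp g 2 m) (hr : 0 ≤ r) (hs : 0 < s) (hF : ∀ᵐ x ∂m, f x ≠ 0 → c + ζ x ≤ 0)
    (hG : ∀ᵐ x ∂m, g x ≠ 0 → r ≤ c + ζ x) :
    |I (g * P s f)| ≤ Real.exp (-(r ^ 2 / (4 * s))) * (Real.sqrt (I (g ^ 2)) * Real.sqrt (I (f ^ 2))) := by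
  have hPf : MemLp (P s f) 2 m := hP.mem _ hs.le f hf
  set E : Set M := {x | g x ≠ 0} with hEdef
  have hgm : Measurable (fun x => g x) := AEEqFun.measurable g
  have hE : MeasurableSet E := (measurableSet_singleton (0 : ℝ)).compl.preimage hgm
  -- `h = 1_E P f`
  have hh : MemLp (E.indicator fun x => P s f x) 2 m := hPf.indicator hE
  set h : M →ₘ[m] ℝ := AEEqFun.mk (E.indicator fun x => P s f x) hh.aestronglyMeasurable with hhdef
  have hhx : ∀ᵐ x ∂m, h x = E.indicator (fun x => P s f x) x :=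
    AEEqFun.coeFn_mk _ hh.aestronglyMeasurable
  have hh2 : MemLp h 2 m := (memLp_congr_ae hhx).2 hh
  have e1 : g * P s f = g * h := by
    rw [eq_iff_ae]
    filter_upwards [mul_ae g (P s f), mul_ae g h, hhx] with x a1 a2 a3
    rw [a1, a2, a3]
    by_cases h0 : g x = 0
    · rw [h0, zero_mul, zero_mul]
    · rw [indicator_of_mem (show x ∈ E from h0)]
  have e2 : I (h ^ 2) = ∫ x in E, P s f x ^ 2 ∂m := by
    rw [← integral_indicator hE]
    unfold I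
    apply integral_congr_ae
    filter_upwards [sq_ae h, hhx] with x a1 a2
    rw [a1, a2]
    by_cases hx : x ∈ E
    · rw [indicator_of_mem hx, indicator_of_mem hx]
    · rw [indicator_of_notMem hx, indicator_of_notMem hx]
      ring
  have e3 : I (f ^ 2) = ∫ x, f x ^ 2 ∂m := integral_congr_ae (sq_ae f)
  have key := gaffney hC hP hζ h1 hf hr hs hF hE (hG.mono fun x hx hxE => hx hxE)
  rw [e1]
  refine (I_abs_le hg hh2).trans ?_
  have e4 : Real.exp (-(r ^ 2 / (4 * s))) = Real.sqrt (Real.exp (-(r ^ 2 / (2 * s)))) := by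
    rw [Real.sqrt_eq_rpow, ← Real.exp_mul]
    congr 1
    field_simp
    ring
  have e5 : Real.sqrt (I (h ^ 2)) ≤ Real.exp (-(r ^ 2 / (4 * s))) * Real.sqrt (I (f ^ 2)) := by
    rw [e4, ← Real.sqrt_mul (Real.exp_pos _).le]
    apply Real.sqrt_le_sqrt
    rw [e2, e3]
    exact key
  calc Real.sqrt (I (g ^ 2)) * Real.sqrt (I (h ^ 2))
      ≤ Real.sqrt (I (g ^ 2)) * (Real.exp (-(r ^ 2 / (4 * s))) * Real.sqrt (I (f ^ 2))) :=
        mul_le_mul_of_nonneg_left e5 (Real.sqrt_nonneg _)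
    _ = _ := by ring

/-- **Backward version**: `t ↦ P (ε (T - t)/2) f` on `[t0,T]`, weights with
`-∂ₜ z + |∇ z|²/2 ≤ 0`. -/
theorem heat_davies_back {t0 T ε B Lt : ℝ} {z : ℝ → M → ℝ} (hε : 0 < ε) (hf : MemLp f 2 m)
    (hzm : ∀ t, AEMeasurable (z t) m)
    (hB : ∀ᵐ x ∂m, ∀ t ∈ Icc t0 T, |z t x| ≤ B)
    (hL : ∀ᵐ x ∂m, ∀ t ∈ Icc t0 T, ∀ s ∈ Icc t0 T, |z t x - z s x| ≤ Lt * |t - s|)
    (hHJ : ∀ t ∈ Ioo t0 T, ∃ (c : ℝ) (ζ : M →ₘ[m] ℝ), ζ ∈ C.A ∧ MemLp (C.Γ ζ ζ) ∞ m ∧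
      (∀ᵐ x ∂m, z t x = c + ζ x) ∧ ∀ᵐ x ∂m, ∀ η > 0, ∀ᶠ s in 𝓝[<] t,
        z s x - z t x ≤ (t - s) * (-(1 / 2) * C.Γ ζ ζ x + η)) :
    ∀ s t, t0 ≤ s → s ≤ t → t ≤ T →
      ∫ x, P (ε * (T - s) / 2) f x ^ 2 * Real.exp (2 * z s x / ε) ∂m ≤
        ∫ x, P (ε * (T - t) / 2) f x ^ 2 * Real.exp (2 * z t x / ε) ∂m := by
  intro s t hs hst htT
  have key := heat_davies hC hP (t0 := t0) (T := T) (z := fun r x => z (t0 + T - r) x) hε hf
    (fun r => hzm _) (B := B) (Lt := Lt) ?_ ?_ ?_ (t0 + T - t) (t0 + T - s) (by linarith)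
    (by linarith) (by linarith)
  · simp only [sub_sub_cancel] at key
    have e1 : t0 + T - s - t0 = T - s := by ring
    have e2 : t0 + T - t - t0 = T - t := by ring
    rw [e1, e2] at key
    exact key
  · filter_upwards [hB] with x a1 r hr
    exact a1 _ ⟨by linarith [hr.2], by linarith [hr.1]⟩
  · filter_upwards [hL] with x a1 r hr q hq
    have := a1 (t0 + T - r) ⟨by linarith [hr.2], by linarith [hr.1]⟩ (t0 + T - q)
      ⟨by linarith [hq.2], by linarith [hq.1]⟩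
    have e : t0 + T - r - (t0 + T - q) = -(r - q) := by ring
    rw [e, abs_neg] at this
    exact this
  · intro r hr
    obtain ⟨c, ζ, h1, h2, h3, h4⟩ := hHJ (t0 + T - r) ⟨by linarith [hr.2], by linarith [hr.1]⟩
    refine ⟨c, ζ, h1, h2, h3, ?_⟩
    filter_upwards [h4] with x a1 η hη
    have h5 := a1 η hη
    have h6 : Tendsto (fun q : ℝ => t0 + T - q) (𝓝[>] r) (𝓝[<] (t0 + T - r)) := by
      apply tendsto_nhdsWithin_of_tendsto_nhds_of_eventually_within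
      · apply Continuous.continuousWithinAt
        fun_prop
      · filter_upwards [self_mem_nhdsWithin] with q hq
        have : r < q := hq
        show t0 + T - q < t0 + T - r
        linarith
    filter_upwards [h6.eventually h5] with q hq
    have e : t0 + T - r - (t0 + T - q) = q - r := by ring
    rw [e] at hq
    exact hq

end heat

end Vale.Agent.P233.H71
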