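import Vale.Agent.P233.Bd3.B1

set_option linter.all false

open MeasureTheory Filter Topology Set
open scoped ENNReal NNReal

namespace Vale.Agent.P233.H71

variable {M : Type*} [MeasurableSpace M] {m : Measure M} {C : Calc m}

/-! ### The static inequality -/

section static

variable (hC : IsDir C)

include hC

/-- `ε ∫ h Δh exp(2z/ε) ≤ ε⁻¹ ∫ h² exp(2z/ε) |∇z|²`. -/
theorem static {h l ζ : M →ₘ[m] ℝ} (hl : C.IsLap h l) (hζ : ζ ∈ C.A)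
    (hζ' : MemLp (C.Γ ζ ζ) ∞ m) (c : ℝ) {ε : ℝ} (hε : 0 < ε) {ω : M →ₘ[m] ℝ}
    (hω : ∀ᵐ x ∂m, ω x = Real.exp (2 * (c + ζ x) / ε)) :
    MemLp ω ∞ m ∧ ε * I (l * (h * ω)) ≤ ε⁻¹ * I (h ^ 2 * (ω * C.Γ ζ ζ)) := by
  have hcont : Continuous fun r : ℝ => Real.exp (2 * (c + r) / ε) := by fun_prop
  have hcont' : Continuous fun r : ℝ => Real.exp (2 * (c + r) / ε) * (2 / ε) := by fun_prop
  have hd : ∀ t : ℝ, HasDerivAt (fun r : ℝ => Real.exp (2 * (c + r) / ε))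
      (Real.exp (2 * (c + t) / ε) * (2 / ε)) t := by
    intro t
    have h1 : HasDerivAt (fun r : ℝ => 2 * (c + r) / ε) (2 / ε) t := by
      have h2 : HasDerivAt (fun r : ℝ => 2 * (c + r) / ε) (2 * (0 + 1) / ε) t :=
        (((hasDerivAt_const t c).add (hasDerivAt_id t)).const_mul 2).div_const ε
      have h3 : (2 : ℝ) * (0 + 1) / ε = 2 / ε := by ring
      rw [h3] at h2
      exact h2
    exact h1.exp
  obtain ⟨b, hbA, hb1, hb2⟩ := hC.ti_comp hζ hcont hcont' hd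
  set Ψ0 : ℝ := Real.exp (2 * (c + 0) / ε) with hΨ0
  have hωb : ω = Ψ0 • (1 : M →ₘ[m] ℝ) + b := by
    rw [← hb1, eq_iff_ae]
    filter_upwards [hω, AEEqFun.coeFn_comp _ hcont ζ] with x a1 a2
    rw [a1, a2, Function.comp_apply]
  have hζW : ζ ∈ C.W := hζ.1
  have hhW : h ∈ C.W := hl.1
  -- pointwise formulas
  have hbζ : ∀ k ∈ C.W, ∀ᵐ x ∂m, C.Γ b k x = (2 / ε) * ω x * C.Γ ζ k x := by
    intro k hk
    rw [hb2 k hk]
    filter_upwards [mul_ae (AEEqFun.comp _ hcont' ζ) (C.Γ ζ k), AEEqFun.coeFn_comp _ hcont' ζ, hω]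
      with x a1 a2 a3
    rw [a1, a2, Function.comp_apply, a3]
    ring
  have hω0 : ∀ᵐ x ∂m, 0 < ω x := by
    filter_upwards [hω] with x a1
    rw [a1]
    exact Real.exp_pos _
  obtain ⟨Kζ, hKζ⟩ := mem_top_iff.1 hζ.2
  have hωtop : MemLp ω ∞ m := by
    refine mem_top_iff.2 ⟨Real.exp (2 * (|c| + |Kζ|) / ε), ?_⟩
    filter_upwards [hω, hKζ] with x a1 a2
    rw [a1, abs_of_pos (Real.exp_pos _)]
    apply Real.exp_le_exp.2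
    gcongr
    · exact le_abs_self c
    · exact (le_abs_self _).trans (a2.trans (le_abs_self _))
  have hbb : MemLp (C.Γ b b) ∞ m := by
    obtain ⟨Kω, hKω⟩ := mem_top_iff.1 hωtop
    obtain ⟨Kz, hKz⟩ := mem_top_iff.1 hζ'
    refine mem_top_iff.2 ⟨((2 / ε) * Kω) ^ 2 * Kz, ?_⟩
    have e1 : C.Γ ζ b = C.Γ b ζ := hC.symm _ hζW _ hbA.1
    filter_upwards [hbζ b hbA.1, hbζ ζ hζW, hKω, hKz] with x a1 a2 a3 a4
    rw [a1, e1, a2]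
    have e2 : 2 / ε * ω x * (2 / ε * ω x * C.Γ ζ ζ x) = ((2 / ε) * ω x) ^ 2 * C.Γ ζ ζ x := by ring
    rw [e2, abs_mul, abs_of_nonneg (sq_nonneg _)]
    have e3 : (2 / ε * ω x) ^ 2 ≤ (2 / ε * Kω) ^ 2 := by
      apply sq_le_sq'
      · have : |2 / ε * ω x| ≤ 2 / ε * Kω := by
          rw [abs_mul, abs_of_pos (by positivity : (0:ℝ) < 2 / ε)]
          gcongr
        linarith [abs_le.1 this]
      · have : |2 / ε * ω x| ≤ 2 / ε * Kω := by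
          rw [abs_mul, abs_of_pos (by positivity : (0:ℝ) < 2 / ε)]
          gcongr
        linarith [abs_le.1 this]
    exact mul_le_mul e3 a4 (abs_nonneg _) (sq_nonneg _)
  -- the test function
  have hg : h * ω = Ψ0 • h + b * h := by
    rw [hωb, eq_iff_ae]
    filter_upwards [mul_ae h (Ψ0 • (1 : M →ₘ[m] ℝ) + b), add_ae (Ψ0 • (1 : M →ₘ[m] ℝ)) b,
      smul_ae (1 : M →ₘ[m] ℝ) Ψ0, one_ae (M := M) (m := m), add_ae (Ψ0 • h) (b * h),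
      smul_ae h Ψ0, mul_ae b h] with x a1 a2 a3 a4 a5 a6 a7
    rw [a1, a2, a3, a4, a5, a6, a7]
    ring
  have hbh : b * h ∈ C.W := hC.mul_mem_lip hbA hbb hhW
  have hgW : h * ω ∈ C.W := by
    rw [hg]
    exact hC.add_mem _ (hC.smul_mem _ _ hhW) _ hbh
  have hΓ : ∀ᵐ x ∂m, C.Γ h (h * ω) x
      = ω x * C.Γ h h x + h x * ((2 / ε) * ω x * C.Γ ζ h x) := by
    have e1 : C.Γ h (h * ω) = Ψ0 • C.Γ h h + (b * C.Γ h h + h * C.Γ b h) := by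
      rw [hg, hC.Γ_add_right hhW (hC.smul_mem _ _ hhW) hbh, hC.Γ_smul_right _ hhW hhW,
        hC.symm h hhW (b * h) hbh, hC.Γ_mul_left_lip hbA hbb hhW hhW]
    rw [e1]
    filter_upwards [add_ae (Ψ0 • C.Γ h h) (b * C.Γ h h + h * C.Γ b h), smul_ae (C.Γ h h) Ψ0,
      add_ae (b * C.Γ h h) (h * C.Γ b h), mul_ae b (C.Γ h h), mul_ae h (C.Γ b h), hbζ h hhW,
      (eq_iff_ae.1 hωb), add_ae (Ψ0 • (1 : M →ₘ[m] ℝ)) b, smul_ae (1 : M →ₘ[m] ℝ) Ψ0,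
      one_ae (M := M) (m := m)] with x a1 a2 a3 a4 a5 a6 a7 a8 a9 a10
    rw [a1, a2, a3, a4, a5, a6]
    rw [a8, a9, a10] at a7
    rw [a7]
    ring
  have hlap := hl.2.2 (h * ω) hgW
  have hh2 : MemLp h 2 m := hC.memLp h hhW
  have hint1 : MemLp (C.Γ h (h * ω)) 1 m := hC.Γ_mem1 hhW hgW
  have hint2 : MemLp (h ^ 2 * (ω * C.Γ ζ ζ) : M →ₘ[m] ℝ) 1 m :=
    mem_top_mul (mem_sq hh2) (mem_mul_top hωtop hζ')
  have hmain : -(I (C.Γ h (h * ω))) ≤ (ε⁻¹) ^ 2 * I (h ^ 2 * (ω * C.Γ ζ ζ)) := by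
    rw [← I_neg, ← I_smul]
    apply I_mono (mem_neg hint1) (mem_smul _ hint2)
    rw [le_iff_ae]
    filter_upwards [neg_ae (C.Γ h (h * ω)), smul_ae (h ^ 2 * (ω * C.Γ ζ ζ)) ((ε⁻¹) ^ 2), hΓ,
      mul_ae (h ^ 2) (ω * C.Γ ζ ζ), sq_ae h, mul_ae ω (C.Γ ζ ζ), hω0, hC.Γ_abs_ae hζW hhW,
      hC.Γ_nonneg_ae hζW, hC.Γ_nonneg_ae hhW] with x a1 a2 a3 a4 a5 a6 a7 a8 a9 a10
    rw [a1, a2, a3, a4, a5, a6]
    have b1 : -(h x * (2 / ε * ω x * C.Γ ζ h x))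
        ≤ ω x * (2 / ε * (|h x| * (Real.sqrt (C.Γ ζ ζ x) * Real.sqrt (C.Γ h h x)))) := by
      have : -(h x * C.Γ ζ h x) ≤ |h x| * (Real.sqrt (C.Γ ζ ζ x) * Real.sqrt (C.Γ h h x)) := by
        calc -(h x * C.Γ ζ h x) ≤ |h x * C.Γ ζ h x| := neg_le_abs _
          _ = |h x| * |C.Γ ζ h x| := abs_mul _ _
          _ ≤ _ := by gcongr
      calc -(h x * (2 / ε * ω x * C.Γ ζ h x)) = ω x * (2 / ε * (-(h x * C.Γ ζ h x))) := by ring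
        _ ≤ _ := by gcongr
    have b2 : 2 / ε * (|h x| * (Real.sqrt (C.Γ ζ ζ x) * Real.sqrt (C.Γ h h x)))
        ≤ C.Γ h h x + (ε⁻¹) ^ 2 * ((h x) ^ 2 * C.Γ ζ ζ x) := by
      have s1 : Real.sqrt (C.Γ ζ ζ x) ^ 2 = C.Γ ζ ζ x := Real.sq_sqrt a9
      have s2 : Real.sqrt (C.Γ h h x) ^ 2 = C.Γ h h x := Real.sq_sqrt a10
      have s3 : |h x| ^ 2 = (h x) ^ 2 := sq_abs _
      have s4 : 0 ≤ (Real.sqrt (C.Γ h h x) - ε⁻¹ * (|h x| * Real.sqrt (C.Γ ζ ζ x))) ^ 2 :=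
        sq_nonneg _
      have s5 : (Real.sqrt (C.Γ h h x) - ε⁻¹ * (|h x| * Real.sqrt (C.Γ ζ ζ x))) ^ 2
          = Real.sqrt (C.Γ h h x) ^ 2 + (ε⁻¹) ^ 2 * (|h x| ^ 2 * Real.sqrt (C.Γ ζ ζ x) ^ 2)
            - 2 / ε * (|h x| * (Real.sqrt (C.Γ ζ ζ x) * Real.sqrt (C.Γ h h x))) := by
        rw [div_eq_mul_inv]; ring
      rw [s5, s1, s2, s3] at s4
      linarith
    calc -(ω x * C.Γ h h x + h x * (2 / ε * ω x * C.Γ ζ h x))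
        = -(ω x * C.Γ h h x) + -(h x * (2 / ε * ω x * C.Γ ζ h x)) := by ring
      _ ≤ -(ω x * C.Γ h h x)
          + ω x * (2 / ε * (|h x| * (Real.sqrt (C.Γ ζ ζ x) * Real.sqrt (C.Γ h h x)))) := by
            gcongr
      _ ≤ -(ω x * C.Γ h h x) + ω x * (C.Γ h h x + (ε⁻¹) ^ 2 * ((h x) ^ 2 * C.Γ ζ ζ x)) := by
            gcongr
      _ = (ε⁻¹) ^ 2 * ((h x) ^ 2 * (ω x * C.Γ ζ ζ x)) := by ring
  refine ⟨hωtop, ?_⟩
  have e1 : I (l * (h * ω)) = -(I (C.Γ h (h * ω))) := by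
    have : I (C.Γ h (h * ω)) = -I (l * (h * ω)) := hlap
    linarith
  rw [e1]
  calc ε * -(I (C.Γ h (h * ω))) ≤ ε * ((ε⁻¹) ^ 2 * I (h ^ 2 * (ω * C.Γ ζ ζ))) := by gcongr
    _ = ε⁻¹ * I (h ^ 2 * (ω * C.Γ ζ ζ)) := by
        have : ε * (ε⁻¹) ^ 2 = ε⁻¹ := by field_simp
        rw [← mul_assoc, this]

end static

end Vale.Agent.P233.H71
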